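import Mathlib
import Vale.Agent.H94.Ekeland

/-!
# The cone `D = ℝ × {t ∈ ℓ¹, t ≥ 0}`: lower semicontinuity and the Ekeland point (P171)

Abstract real analysis, no project definitions.  `X = ℝ × ℓ¹(ℕ)` with Mathlib's product norm,
`cone = {x | ∀ n, 0 ≤ x.2 n}`.

* `isClosed_cone`, `cone_sub_left`, `cone_add_single` : the cone is closed and stable under the
  two moves used by the variational argument.
* `cone_lower_bound` / `lsc_on_cone` : a function which is convex on the cone, nondecreasing in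
  the sequence variable, nonnegative and bounded above on bounded parts of the cone satisfies
  `F x - M * ‖x - y‖ ≤ F y` near `x`, hence is lower semicontinuous on the cone.
* `ekeland_cone` : for such an `F` which dominates `x.1 / 8 + ∑ lam n * x.2 n`
  (`0 ≤ lam n ≤ 1`), and `0 ≤ θ ≤ 1`, `0 < η`, there is a point `x'` of the cone with
  `F x' - F (x'.1 - u, x'.2) ≤ (θ / 8 + η) u` for all `u > 0` and
  `(θ lam n - η) σ ≤ F (x'.1, x'.2 + σ e_n) - F x'` for all `n` and `σ > 0`.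
-/

open Set Filter Topology
open scoped ENNReal

namespace Vale.Agent.H30.P171

/-- The carrier `ℝ × ℓ¹(ℕ)`. -/
abbrev X := ℝ × lp (fun _ : ℕ => ℝ) 1

/-- The cone `{(μ, t) | t ≥ 0}`. -/
def cone : Set X := {x | ∀ n, 0 ≤ x.2 n}

/-- The unit vector `e_n` of `ℓ¹`. -/
noncomputable def e (n : ℕ) : lp (fun _ : ℕ => ℝ) 1 := lp.single 1 n (1 : ℝ)

theorem e_apply_self (n : ℕ) : (e n : ℕ → ℝ) n = 1 := by
  unfold e
  exact lp.single_apply_self (E := fun _ : ℕ => ℝ) 1 n (1 : ℝ)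

theorem e_apply_ne (n : ℕ) {k : ℕ} (h : k ≠ n) : (e n : ℕ → ℝ) k = 0 := by
  unfold e
  exact lp.single_apply_ne (E := fun _ : ℕ => ℝ) 1 n (1 : ℝ) h

theorem e_nonneg (n k : ℕ) : 0 ≤ (e n : ℕ → ℝ) k := by
  by_cases h : k = n
  · subst h; rw [e_apply_self]; norm_num
  · rw [e_apply_ne n h]

theorem norm_e (n : ℕ) : ‖e n‖ = 1 := by
  unfold e
  rw [lp.norm_single (by norm_num)]
  simp

theorem continuous_apply (n : ℕ) : Continuous fun x : X => x.2 n :=
  ((lp.evalCLM ℝ (fun _ : ℕ => ℝ) 1 n).continuous).comp continuous_snd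

theorem isClosed_cone : IsClosed cone := by
  have h : cone = ⋂ n : ℕ, {x : X | 0 ≤ x.2 n} := by
    ext x
    simp [cone]
  rw [h]
  exact isClosed_iInter fun n => isClosed_le continuous_const (continuous_apply n)

theorem zero_mem_cone : (0 : X) ∈ cone := fun n => by simp

theorem cone_sub_left {x : X} (hx : x ∈ cone) (u : ℝ) : ((x.1 - u, x.2) : X) ∈ cone := hx

theorem cone_add_single {x : X} (hx : x ∈ cone) (n : ℕ) {σ : ℝ} (hσ : 0 ≤ σ) :
    ((x.1, x.2 + σ • e n) : X) ∈ cone := by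
  intro k
  show 0 ≤ (x.2 + σ • e n : lp (fun _ : ℕ => ℝ) 1) k
  rw [lp.coeFn_add, lp.coeFn_smul]
  simp only [Pi.add_apply, Pi.smul_apply, smul_eq_mul]
  exact add_nonneg (hx k) (mul_nonneg hσ (e_nonneg n k))

/-- `ℓ¹` norm as a sum. -/
theorem norm_eq_tsum (f : lp (fun _ : ℕ => ℝ) 1) : ‖f‖ = ∑' n, |f n| := by
  rw [lp.norm_eq_tsum_rpow (by norm_num)]
  simp [Real.norm_eq_abs]

theorem summable_abs (f : lp (fun _ : ℕ => ℝ) 1) : Summable fun n => |f n| := by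
  have h := (lp.memℓp f).summable (by norm_num : 0 < (1 : ℝ≥0∞).toReal)
  simpa [Real.norm_eq_abs] using h

theorem norm_le_of_abs_le (f g : lp (fun _ : ℕ => ℝ) 1) (h : ∀ n, |f n| ≤ |g n|) :
    ‖f‖ ≤ ‖g‖ := by
  rw [norm_eq_tsum, norm_eq_tsum]
  exact (summable_abs f).tsum_le_tsum h (summable_abs g)

/-- Pointwise minimum of two elements of `ℓ¹`. -/
noncomputable def minLp (s t : lp (fun _ : ℕ => ℝ) 1) : lp (fun _ : ℕ => ℝ) 1 :=
  ⟨fun n => min (s n) (t n), by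
    apply memℓp_gen
    have hs := summable_abs s
    have ht := summable_abs t
    refine Summable.of_nonneg_of_le (fun n => by positivity) (fun n => ?_) (hs.add ht)
    simp only [ENNReal.toReal_one, Real.rpow_one, Real.norm_eq_abs]
    rcases min_choice (s n) (t n) with h | h <;> rw [h]
    · linarith [abs_nonneg (t n)]
    · linarith [abs_nonneg (s n)]⟩

theorem minLp_apply (s t : lp (fun _ : ℕ => ℝ) 1) (n : ℕ) : minLp s t n = min (s n) (t n) := rfl

/-- Quantitative one-sided Lipschitz bound on the cone: if `F ≤ M` on the part of the cone of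
norm at most `‖x‖ + 2`, then `F x - M * ‖x - y‖ ≤ F y` for `y` in the cone, `‖x - y‖ < 1`. -/
theorem cone_lower_bound (F : X → ℝ) (hconv : ConvexOn ℝ cone F)
    (hmono : ∀ x ∈ cone, ∀ y ∈ cone, x.1 = y.1 → (∀ n, x.2 n ≤ y.2 n) → F x ≤ F y)
    (h0 : ∀ x ∈ cone, 0 ≤ F x) {x : X} (hx : x ∈ cone) {M : ℝ}
    (hM : ∀ z ∈ cone, ‖z‖ ≤ ‖x‖ + 2 → F z ≤ M) {y : X} (hy : y ∈ cone) (hxy : ‖x - y‖ < 1) :
    F x - M * ‖x - y‖ ≤ F y := by
  have hytc : ((y.1, minLp x.2 y.2) : X) ∈ cone := fun n => le_min (hx n) (hy n)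
  have h1 : F (y.1, minLp x.2 y.2) ≤ F y :=
    hmono _ hytc y hy rfl (fun n => min_le_right _ _)
  have hd_le : ‖x - (y.1, minLp x.2 y.2)‖ ≤ ‖x - y‖ := by
    rw [Prod.norm_def, Prod.norm_def]
    apply max_le_max
    · exact le_of_eq rfl
    · apply norm_le_of_abs_le
      intro n
      show |(x.2 - minLp x.2 y.2) n| ≤ |(x.2 - y.2) n|
      rw [lp.coeFn_sub, lp.coeFn_sub]
      simp only [Pi.sub_apply]
      rw [minLp_apply]
      rcases le_total (x.2 n) (y.2 n) with h | h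
      · rw [min_eq_left h]
        simp
      · rw [min_eq_right h]
  have hM0 : 0 ≤ M := le_trans (h0 x hx) (hM x hx (by linarith))
  have hd0 : 0 ≤ ‖x - (y.1, minLp x.2 y.2)‖ := norm_nonneg _
  have hd1 : ‖x - (y.1, minLp x.2 y.2)‖ < 1 := lt_of_le_of_lt hd_le hxy
  have hxy0 : 0 ≤ ‖x - y‖ := norm_nonneg _
  rcases eq_or_lt_of_le hd0 with hdz | hdpos
  · have hxe : x = (y.1, minLp x.2 y.2) := sub_eq_zero.1 (norm_eq_zero.1 hdz.symm)
    have hFx : F x = F (y.1, minLp x.2 y.2) := congrArg F hxe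
    nlinarith [mul_nonneg hM0 hxy0]
  · obtain ⟨d, hd⟩ : ∃ d : ℝ, d = ‖x - (y.1, minLp x.2 y.2)‖ := ⟨_, rfl⟩
    rw [← hd] at hd_le hd0 hd1 hdpos
    have hzc : ((y.1, minLp x.2 y.2) + d⁻¹ • (x - (y.1, minLp x.2 y.2)) : X) ∈ cone := by
      intro n
      show 0 ≤ (minLp x.2 y.2 + d⁻¹ • (x.2 - minLp x.2 y.2)) n
      rw [lp.coeFn_add, lp.coeFn_smul, lp.coeFn_sub]
      simp only [Pi.add_apply, Pi.smul_apply, Pi.sub_apply, smul_eq_mul]
      have h1 : 0 ≤ minLp x.2 y.2 n := hytc n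
      have h2 : minLp x.2 y.2 n ≤ x.2 n := min_le_left _ _
      have h3 : 0 ≤ d⁻¹ := inv_nonneg.2 hd0
      nlinarith [mul_nonneg h3 (sub_nonneg.2 h2)]
    have hznorm : ‖((y.1, minLp x.2 y.2) + d⁻¹ • (x - (y.1, minLp x.2 y.2)) : X)‖ ≤ ‖x‖ + 2 := by
      have hyt : ‖((y.1, minLp x.2 y.2) : X)‖ ≤ ‖x‖ + d := by
        calc ‖((y.1, minLp x.2 y.2) : X)‖ = ‖x - (x - (y.1, minLp x.2 y.2))‖ := by
              congr 1
              abel
          _ ≤ ‖x‖ + ‖x - (y.1, minLp x.2 y.2)‖ := norm_sub_le _ _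
          _ = ‖x‖ + d := by rw [hd]
      calc ‖((y.1, minLp x.2 y.2) + d⁻¹ • (x - (y.1, minLp x.2 y.2)) : X)‖
          ≤ ‖((y.1, minLp x.2 y.2) : X)‖ + ‖d⁻¹ • (x - (y.1, minLp x.2 y.2))‖ := norm_add_le _ _
        _ = ‖((y.1, minLp x.2 y.2) : X)‖ + 1 := by
            rw [norm_smul, norm_inv, Real.norm_eq_abs, abs_of_pos hdpos, ← hd,
              inv_mul_cancel₀ hdpos.ne']
        _ ≤ ‖x‖ + 2 := by linarith
    have hcomb : x = (1 - d) • ((y.1, minLp x.2 y.2) : X)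
        + d • ((y.1, minLp x.2 y.2) + d⁻¹ • (x - (y.1, minLp x.2 y.2))) := by
      rw [smul_add, smul_smul, mul_inv_cancel₀ hdpos.ne', one_smul]
      module
    have hconvx := hconv.2 hytc hzc (by linarith : 0 ≤ 1 - d) hd0 (by ring : 1 - d + d = 1)
    rw [← hcomb] at hconvx
    simp only [smul_eq_mul] at hconvx
    have hFz := hM _ hzc hznorm
    have hFyt : 0 ≤ F (y.1, minLp x.2 y.2) := h0 _ hytc
    nlinarith [mul_nonneg hd0 hFyt, mul_le_mul_of_nonneg_left hFz hd0,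
      mul_le_mul_of_nonneg_left hd_le hM0]

/-- A function convex on the cone, nondecreasing in the sequence variable, nonnegative and
bounded above on bounded parts of the cone is lower semicontinuous on the cone. -/
theorem lsc_on_cone (F : X → ℝ) (hconv : ConvexOn ℝ cone F)
    (hmono : ∀ x ∈ cone, ∀ y ∈ cone, x.1 = y.1 → (∀ n, x.2 n ≤ y.2 n) → F x ≤ F y)
    (h0 : ∀ x ∈ cone, 0 ≤ F x) (hbdd : ∀ r : ℝ, ∃ M : ℝ, ∀ x ∈ cone, ‖x‖ ≤ r → F x ≤ M) :
    LowerSemicontinuousOn F cone := by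
  intro x hx c hc
  obtain ⟨M, hM⟩ := hbdd (‖x‖ + 2)
  have hM0 : 0 ≤ M := le_trans (h0 x hx) (hM x hx (by linarith))
  have hδ : 0 < min 1 ((F x - c) / (M + 1)) :=
    lt_min one_pos (div_pos (by linarith) (by linarith))
  rw [eventually_nhdsWithin_iff]
  filter_upwards [Metric.ball_mem_nhds x hδ] with y hy hyc
  have hy' : ‖x - y‖ < min 1 ((F x - c) / (M + 1)) := by
    rw [← dist_eq_norm, dist_comm]
    exact hy
  have h1 := cone_lower_bound F hconv hmono h0 hx hM hyc (lt_of_lt_of_le hy' (min_le_left _ _))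
  have h2 : ‖x - y‖ < (F x - c) / (M + 1) := lt_of_lt_of_le hy' (min_le_right _ _)
  have h3 : ‖x - y‖ * (M + 1) < F x - c := (lt_div_iff₀ (by linarith)).1 h2
  nlinarith [norm_nonneg (x - y)]


/-- The linear minorant `G x = x.1 / 8 + ∑ lam n * x.2 n`. -/
noncomputable def G (lam : ℕ → ℝ) (x : X) : ℝ := x.1 / 8 + ∑' n, lam n * x.2 n

theorem summable_lam (lam : ℕ → ℝ) (hlam0 : ∀ n, 0 ≤ lam n) (hlam1 : ∀ n, lam n ≤ 1)
    (t : lp (fun _ : ℕ => ℝ) 1) : Summable fun n => lam n * t n := by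
  refine Summable.of_norm_bounded (summable_abs t) (fun n => ?_)
  rw [Real.norm_eq_abs, abs_mul, abs_of_nonneg (hlam0 n)]
  exact mul_le_of_le_one_left (abs_nonneg _) (hlam1 n)

/-- The sum part of `G` as a linear map on `ℓ¹`. -/
noncomputable def Glin (lam : ℕ → ℝ) (hlam0 : ∀ n, 0 ≤ lam n) (hlam1 : ∀ n, lam n ≤ 1) :
    lp (fun _ : ℕ => ℝ) 1 →ₗ[ℝ] ℝ where
  toFun t := ∑' n, lam n * t n
  map_add' s t := by
    simp only [lp.coeFn_add, Pi.add_apply, mul_add]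
    exact (summable_lam lam hlam0 hlam1 s).tsum_add (summable_lam lam hlam0 hlam1 t)
  map_smul' c t := by
    simp only [lp.coeFn_smul, Pi.smul_apply, smul_eq_mul, RingHom.id_apply]
    rw [← tsum_mul_left]
    congr 1
    ext n
    ring

theorem Glin_bound (lam : ℕ → ℝ) (hlam0 : ∀ n, 0 ≤ lam n) (hlam1 : ∀ n, lam n ≤ 1)
    (t : lp (fun _ : ℕ => ℝ) 1) : ‖Glin lam hlam0 hlam1 t‖ ≤ 1 * ‖t‖ := by
  rw [one_mul, norm_eq_tsum]
  show ‖∑' n, lam n * t n‖ ≤ ∑' n, |t n|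
  have hs : Summable fun n => ‖lam n * t n‖ := (summable_lam lam hlam0 hlam1 t).norm
  refine (norm_tsum_le_tsum_norm hs).trans (hs.tsum_le_tsum (fun n => ?_) (summable_abs t))
  rw [Real.norm_eq_abs, abs_mul, abs_of_nonneg (hlam0 n)]
  exact mul_le_of_le_one_left (abs_nonneg _) (hlam1 n)

theorem continuous_G (lam : ℕ → ℝ) (hlam0 : ∀ n, 0 ≤ lam n) (hlam1 : ∀ n, lam n ≤ 1) :
    Continuous (G lam) := by
  have hL : Continuous fun t : lp (fun _ : ℕ => ℝ) 1 => ∑' n, lam n * t n :=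
    ((Glin lam hlam0 hlam1).mkContinuous 1 (Glin_bound lam hlam0 hlam1)).continuous
  unfold G
  exact (continuous_fst.div_const 8).add (hL.comp continuous_snd)

theorem G_sub_left (lam : ℕ → ℝ) (x : X) (u : ℝ) : G lam (x.1 - u, x.2) = G lam x - u / 8 := by
  unfold G
  simp only
  ring

theorem G_add_single (lam : ℕ → ℝ) (hlam0 : ∀ n, 0 ≤ lam n) (hlam1 : ∀ n, lam n ≤ 1) (x : X)
    (n : ℕ) (σ : ℝ) : G lam (x.1, x.2 + σ • e n) = G lam x + σ * lam n := by
  unfold G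
  simp only
  have h1 : (fun k => lam k * (x.2 + σ • e n : lp (fun _ : ℕ => ℝ) 1) k)
      = fun k => lam k * x.2 k + lam k * (σ * e n k) := by
    ext k
    rw [lp.coeFn_add, lp.coeFn_smul]
    simp only [Pi.add_apply, Pi.smul_apply, smul_eq_mul]
    ring
  have h2 : ∀ k, k ≠ n → lam k * (σ * e n k) = 0 := by
    intro k hk
    rw [e_apply_ne n hk]
    ring
  have hs2 : Summable fun k => lam k * (σ * e n k) :=
    summable_of_ne_finset_zero (s := {n}) (fun k hk => h2 k (by simpa using hk))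
  rw [h1, (summable_lam lam hlam0 hlam1 x.2).tsum_add hs2, tsum_eq_single n h2, e_apply_self]
  ring

/-- The Ekeland point on the cone.  `F` convex on the cone, nondecreasing in the sequence
variable, nonnegative, bounded above on bounded parts, `G lam ≤ F` on the cone. -/
theorem ekeland_cone (F : X → ℝ) (hconv : ConvexOn ℝ cone F)
    (hmono : ∀ x ∈ cone, ∀ y ∈ cone, x.1 = y.1 → (∀ n, x.2 n ≤ y.2 n) → F x ≤ F y)
    (h0 : ∀ x ∈ cone, 0 ≤ F x) (hbdd : ∀ r : ℝ, ∃ M : ℝ, ∀ x ∈ cone, ‖x‖ ≤ r → F x ≤ M)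
    (lam : ℕ → ℝ) (hlam0 : ∀ n, 0 ≤ lam n) (hlam1 : ∀ n, lam n ≤ 1)
    (hG : ∀ x ∈ cone, G lam x ≤ F x) (θ η : ℝ) (hθ0 : 0 ≤ θ) (hθ1 : θ ≤ 1) (hη : 0 < η)
    (x0 : X) (hx0 : x0 ∈ cone) :
    ∃ x' ∈ cone, F x' - θ * G lam x' + η * dist x0 x' ≤ F x0 - θ * G lam x0 ∧
      (∀ u : ℝ, 0 < u → F x' - F (x'.1 - u, x'.2) ≤ (θ / 8 + η) * u) ∧
      (∀ (n : ℕ) (σ : ℝ), 0 < σ → (θ * lam n - η) * σ ≤ F (x'.1, x'.2 + σ • e n) - F x') := by
  have hlsc : LowerSemicontinuousOn (fun x => F x + -(θ * G lam x)) cone :=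
    (lsc_on_cone F hconv hmono h0 hbdd).add
      (((continuous_const.mul (continuous_G lam hlam0 hlam1)).neg).lowerSemicontinuous
        |>.lowerSemicontinuousOn cone)
  have hlow : ∀ x ∈ cone, (0 : ℝ) ≤ F x + -(θ * G lam x) := by
    intro x hx
    have h1 := hG x hx
    have h2 := h0 x hx
    rcases le_total 0 (G lam x) with hg | hg
    · nlinarith [mul_le_mul_of_nonneg_left h1 hθ0, mul_nonneg (sub_nonneg.2 hθ1) h2]
    · nlinarith [mul_nonneg hθ0 (neg_nonneg.2 hg)]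
  obtain ⟨x', hx', hapr, hmin⟩ :=
    Vale.Agent.H94.ekeland_on cone isClosed_cone (fun x => F x + -(θ * G lam x)) hlsc 0 hlow η hη
      x0 hx0
  refine ⟨x', hx', by linarith, ?_, ?_⟩
  · intro u hu
    have h := hmin (x'.1 - u, x'.2) (cone_sub_left hx' u)
    have hd : dist x' ((x'.1 - u, x'.2) : X) = u := by
      rw [Prod.dist_eq, dist_self, Real.dist_eq]
      have : x'.1 - (x'.1 - u) = u := by ring
      rw [this, abs_of_pos hu]
      exact max_eq_left hu.le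
    rw [hd, G_sub_left] at h
    nlinarith
  · intro n σ hσ
    have h := hmin (x'.1, x'.2 + σ • e n) (cone_add_single hx' n hσ.le)
    have hd : dist x' ((x'.1, x'.2 + σ • e n) : X) = σ := by
      rw [Prod.dist_eq, dist_self, dist_eq_norm]
      have : x'.2 - (x'.2 + σ • e n) = -(σ • e n) := by abel
      rw [this, norm_neg, norm_smul, norm_e, mul_one, Real.norm_eq_abs, abs_of_pos hσ]
      exact max_eq_right hσ.le
    rw [hd, G_add_single lam hlam0 hlam1] at h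
    nlinarith


theorem cone_add_left {x : X} (hx : x ∈ cone) (u : ℝ) : ((x.1 + u, x.2) : X) ∈ cone := hx

theorem G_add_left (lam : ℕ → ℝ) (x : X) (u : ℝ) : G lam (x.1 + u, x.2) = G lam x + u / 8 := by
  unfold G
  simp only
  ring

/-- The Ekeland point on the cone, raw form: the a-priori bound and the minimality property. -/
theorem ekeland_cone_min (F : X → ℝ) (hconv : ConvexOn ℝ cone F)
    (hmono : ∀ x ∈ cone, ∀ y ∈ cone, x.1 = y.1 → (∀ n, x.2 n ≤ y.2 n) → F x ≤ F y)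
    (h0 : ∀ x ∈ cone, 0 ≤ F x) (hbdd : ∀ r : ℝ, ∃ M : ℝ, ∀ x ∈ cone, ‖x‖ ≤ r → F x ≤ M)
    (lam : ℕ → ℝ) (hlam0 : ∀ n, 0 ≤ lam n) (hlam1 : ∀ n, lam n ≤ 1)
    (hG : ∀ x ∈ cone, G lam x ≤ F x) (θ η : ℝ) (hθ0 : 0 ≤ θ) (hθ1 : θ ≤ 1) (hη : 0 < η)
    (x0 : X) (hx0 : x0 ∈ cone) :
    ∃ x' ∈ cone, F x' - θ * G lam x' + η * dist x0 x' ≤ F x0 - θ * G lam x0 ∧
      ∀ y ∈ cone, F x' - θ * G lam x' ≤ F y - θ * G lam y + η * dist x' y := by
  have hlsc : LowerSemicontinuousOn (fun x => F x + -(θ * G lam x)) cone :=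
    (lsc_on_cone F hconv hmono h0 hbdd).add
      (((continuous_const.mul (continuous_G lam hlam0 hlam1)).neg).lowerSemicontinuous
        |>.lowerSemicontinuousOn cone)
  have hlow : ∀ x ∈ cone, (0 : ℝ) ≤ F x + -(θ * G lam x) := by
    intro x hx
    have h1 := hG x hx
    have h2 := h0 x hx
    rcases le_total 0 (G lam x) with hg | hg
    · nlinarith [mul_le_mul_of_nonneg_left h1 hθ0, mul_nonneg (sub_nonneg.2 hθ1) h2]
    · nlinarith [mul_nonneg hθ0 (neg_nonneg.2 hg)]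
  obtain ⟨x', hx', hapr, hmin⟩ :=
    Vale.Agent.H94.ekeland_on cone isClosed_cone (fun x => F x + -(θ * G lam x)) hlsc 0 hlow η hη
      x0 hx0
  refine ⟨x', hx', by linarith, fun y hy => ?_⟩
  have h := hmin y hy
  linarith

/-- The Ekeland point on the cone with the three one-sided increment bounds:
left and right increments in the first variable, forward increments along every `e n`. -/
theorem ekeland_cone_full (F : X → ℝ) (hconv : ConvexOn ℝ cone F)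
    (hmono : ∀ x ∈ cone, ∀ y ∈ cone, x.1 = y.1 → (∀ n, x.2 n ≤ y.2 n) → F x ≤ F y)
    (h0 : ∀ x ∈ cone, 0 ≤ F x) (hbdd : ∀ r : ℝ, ∃ M : ℝ, ∀ x ∈ cone, ‖x‖ ≤ r → F x ≤ M)
    (lam : ℕ → ℝ) (hlam0 : ∀ n, 0 ≤ lam n) (hlam1 : ∀ n, lam n ≤ 1)
    (hG : ∀ x ∈ cone, G lam x ≤ F x) (θ η : ℝ) (hθ0 : 0 ≤ θ) (hθ1 : θ ≤ 1) (hη : 0 < η)
    (x0 : X) (hx0 : x0 ∈ cone) :
    ∃ x' ∈ cone, F x' - θ * G lam x' + η * dist x0 x' ≤ F x0 - θ * G lam x0 ∧
      (∀ u : ℝ, 0 < u → F x' - F (x'.1 - u, x'.2) ≤ (θ / 8 + η) * u) ∧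
      (∀ u : ℝ, 0 < u → (θ / 8 - η) * u ≤ F (x'.1 + u, x'.2) - F x') ∧
      (∀ (n : ℕ) (σ : ℝ), 0 < σ → (θ * lam n - η) * σ ≤ F (x'.1, x'.2 + σ • e n) - F x') := by
  obtain ⟨x', hx', hapr, hmin⟩ :=
    ekeland_cone_min F hconv hmono h0 hbdd lam hlam0 hlam1 hG θ η hθ0 hθ1 hη x0 hx0
  refine ⟨x', hx', hapr, ?_, ?_, ?_⟩
  · intro u hu
    have h := hmin (x'.1 - u, x'.2) (cone_sub_left hx' u)
    have hd : dist x' ((x'.1 - u, x'.2) : X) = u := by
      rw [Prod.dist_eq, dist_self, Real.dist_eq]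
      have : x'.1 - (x'.1 - u) = u := by ring
      rw [this, abs_of_pos hu]
      exact max_eq_left hu.le
    rw [hd, G_sub_left] at h
    nlinarith
  · intro u hu
    have h := hmin (x'.1 + u, x'.2) (cone_add_left hx' u)
    have hd : dist x' ((x'.1 + u, x'.2) : X) = u := by
      rw [Prod.dist_eq, dist_self, Real.dist_eq]
      have : x'.1 - (x'.1 + u) = -u := by ring
      rw [this, abs_neg, abs_of_pos hu]
      exact max_eq_left hu.le
    rw [hd, G_add_left] at h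
    nlinarith
  · intro n σ hσ
    have h := hmin (x'.1, x'.2 + σ • e n) (cone_add_single hx' n hσ.le)
    have hd : dist x' ((x'.1, x'.2 + σ • e n) : X) = σ := by
      rw [Prod.dist_eq, dist_self, dist_eq_norm]
      have : x'.2 - (x'.2 + σ • e n) = -(σ • e n) := by abel
      rw [this, norm_neg, norm_smul, norm_e, mul_one, Real.norm_eq_abs, abs_of_pos hσ]
      exact max_eq_right hσ.le
    rw [hd, G_add_single lam hlam0 hlam1] at h
    nlinarith


end Vale.Agent.H30.P171
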